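import Vale.Agent.P069.Defs
import Vale.Agent.P069.Amuc
import Vale.Agent.P069.NotAuc
import Vale.Agent.P069.Refl

/-!
# A reflexive space with an AMUC norm and without equivalent AUC norm
-/

namespace Vale.Agent.Results.P069.AmucNotAuc

open Vale.Agent.P069

theorem XX_reflexive : IsReflexiveSpace XX :=
  lp_reflexive fun k => reflexive_of_equiv (toHL k) (hilbert_reflexive HH)

theorem XX_infinite : ¬ FiniteDimensional ℝ XX := by
  intro hfd
  apply not_auc
  refine ⟨normSeminorm ℝ XX, ⟨1, 1, one_pos, fun x => ⟨by simp, by simp⟩⟩, ?_⟩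
  intro t _
  refine lt_of_lt_of_le (b := (⊤ : EReal)) (by simp) ?_
  unfold aucModulus
  refine le_iInf₂ fun x _ => ?_
  have hbot : (⊥ : Submodule ℝ XX) ∈ cof XX := by
    constructor
    · simp
    · infer_instance
  refine le_iSup₂_of_le ⊥ hbot ?_
  refine le_iInf₂ fun y hy => ?_
  exfalso
  obtain ⟨hy0, hy1⟩ := hy
  rw [Submodule.mem_bot] at hy0
  rw [hy0, map_zero] at hy1
  exact zero_ne_one hy1

/-- **There is a reflexive infinite-dimensional Banach space which has an equivalent AMUC norm but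
no equivalent AUC norm.** -/
theorem result : ∃ (X : Type) (_ : NormedAddCommGroup X) (_ : NormedSpace ℝ X),
    CompleteSpace X ∧ ¬ FiniteDimensional ℝ X ∧ IsReflexiveSpace X ∧
      AMUCRenormable X ∧ ¬ AUCRenormable X := by
  refine ⟨XX, inferInstance, inferInstance, inferInstance, XX_infinite, XX_reflexive, ?_, not_auc⟩
  exact ⟨normSeminorm ℝ XX, ⟨1, 1, one_pos, fun x => ⟨by simp, by simp⟩⟩, XX_amuc⟩

end Vale.Agent.Results.P069.AmucNotAuc
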